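import Mathlib
import Vale.Agent.Lib.P235.Weighted

namespace Vale.Agent.Results.P235.FeedbackVertexSet

/-- Bounded distortion `ℓ¹` embeddings for graphs with a bounded feedback vertex set.

Let `G` be a finite connected graph with arbitrary positive edge lengths `w`, and let `A` be a
set of at most `k` vertices whose deletion leaves a forest.  Then there is a map `f` of the
vertex set into some `ℝ^m` such that, for the `ℓ¹` distance `∑ j, |f u j - f v j|`:
some walk from `u` to `v` has `w`-length at most the `ℓ¹` distance, and the `ℓ¹` distance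
is at most `k + 5` times the `w`-length of every walk from `u` to `v`.  In other words
`d(u, v) ≤ ‖f u - f v‖₁ ≤ (k + 5) d(u, v)` for the shortest-path metric `d` of `(G, w)`. -/
theorem result {V : Type*} [Fintype V] (G : SimpleGraph V) (hG : G.Connected)
    (w : Sym2 V → ℝ) (hw : ∀ e ∈ G.edgeSet, 0 < w e)
    (A : Finset V) (hacyc : (G.induce {x | x ∉ A}).IsAcyclic) (k : ℕ) (hk : A.card ≤ k) :
    ∃ (m : ℕ) (f : V → Fin m → ℝ), ∀ u v : V,
      (∃ p : G.Walk u v, (p.edges.map w).sum ≤ ∑ j, |f u j - f v j|) ∧
      (∀ p : G.Walk u v, ∑ j, |f u j - f v j| ≤ (k + 5) * (p.edges.map w).sum) :=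
  Vale.Agent.Lib.P235.weighted_fvs_embedding G hG w hw A hacyc k hk

end Vale.Agent.Results.P235.FeedbackVertexSet
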