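import Mathlib
import Vale.Agent.Lib.P235.Main

namespace Vale.Agent.Results.P235.FeedbackVertexSetMetric

/-- Bounded distortion `ℓ¹` embeddings for graph metrics with a bounded feedback vertex set,
in metric form.

Let `V` be a finite metric space and `G` a graph on `V` such that any two points are joined
by a walk of `G` whose steps have distances adding up to the distance of its ends (so the
metric is the shortest-path metric of `G` with edge lengths `dist x y`).  If deleting a set
`A` of at most `k` vertices from `G` leaves a forest, then `V` embeds into some `ℝ^m` with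
the `ℓ¹` norm with distortion at most `k + 5`. -/
theorem result {V : Type*} [Fintype V] [MetricSpace V] (G : SimpleGraph V)
    (hgeo : ∀ u v : V, ∃ p : G.Walk u v,
      (p.darts.map fun e => dist e.fst e.snd).sum = dist u v)
    (A : Finset V) (hacyc : (G.induce {x | x ∉ A}).IsAcyclic) (k : ℕ) (hk : A.card ≤ k) :
    ∃ (m : ℕ) (f : V → Fin m → ℝ), ∀ u v : V,
      dist u v ≤ ∑ j, |f u j - f v j| ∧ ∑ j, |f u j - f v j| ≤ (k + 5) * dist u v :=
  Vale.Agent.Lib.P235.bounded_fvs_embedding G hgeo A hacyc k hk

end Vale.Agent.Results.P235.FeedbackVertexSetMetric
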